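import Mathlib
import Vale.Agent.Lib.P252.Defs
import Vale.Agent.Lib.P252.Sep

/-!
# P252: the affine Bernstein theorem for additively separable entire graphs, every dimension

If `u(x) = ∑ f_i(x_i)` is `C^4` on `ℝ^n`, has positive definite Hessian everywhere and solves the
affine maximal equation (AM), then `u` is a quadratic polynomial (an elliptic paraboloid).
-/

namespace Vale.Agent.Results.P252.SeparableEntire

open Vale.Agent.Lib.P252

theorem result (n : ℕ) (u : (Fin n → ℝ) → ℝ) (hu : ContDiff ℝ 4 u)
    (hsep : ∃ f : Fin n → ℝ → ℝ, ∀ x, u x = ∑ i, f i (x i))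
    (hpos : ∀ x, (hess u x).PosDef) (hAM : AffineMaximal u) :
    ∃ (a b : Fin n → ℝ) (c : ℝ), (∀ i, 0 < a i) ∧
      ∀ x, u x = ∑ i, (a i / 2 * (x i)^2 + b i * x i) + c := by
  classical
  obtain ⟨f, hf⟩ := hsep
  have hu' : u = sumFn f := by
    funext x; rw [hf x]; rfl
  have hfC : ∀ i, ContDiff ℝ 4 (f i) := by
    intro i
    have h1 : ContDiff ℝ 4 (fun t : ℝ => (Pi.single i t : Fin n → ℝ)) := by
      rw [contDiff_pi]
      intro j
      by_cases hj : j = i
      · subst hj
        have : (fun t : ℝ => (Pi.single j t : Fin n → ℝ) j) = fun t => t := by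
          funext t; simp
        rw [this]; exact contDiff_id
      · have : (fun t : ℝ => (Pi.single i t : Fin n → ℝ) j) = fun _ => 0 := by
          funext t; simp [hj]
        rw [this]; exact contDiff_const
    have h2 : ContDiff ℝ 4 (fun t : ℝ => u (Pi.single i t)) := hu.comp h1
    have h3 : f i = fun t => u (Pi.single i t) - ∑ j ∈ Finset.univ.erase i, f j 0 := by
      funext t
      rw [hf, ← Finset.add_sum_erase _ _ (Finset.mem_univ i)]
      have : ∑ j ∈ Finset.univ.erase i, f j ((Pi.single i t : Fin n → ℝ) j)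
          = ∑ j ∈ Finset.univ.erase i, f j 0 := by
        refine Finset.sum_congr rfl (fun j hj => ?_)
        rw [Pi.single_eq_of_ne (Finset.ne_of_mem_erase hj)]
      rw [this]
      simp
    rw [h3]
    exact h2.sub contDiff_const
  rw [hu'] at hpos hAM
  have hcore := separable_core f hfC hpos hAM
  choose a ha using hcore
  refine ⟨a, fun i => deriv (f i) 0, ∑ i, f i 0, fun i => (ha i).1, ?_⟩
  intro x
  rw [hf x, ← Finset.sum_add_distrib]
  refine Finset.sum_congr rfl (fun i _ => ?_)
  exact (ha i).2 (x i)

end Vale.Agent.Results.P252.SeparableEntire
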